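/-
S0066 (row 47) — package F2 (`bottom`), core part (helper72, backup track).

`bottom_of_rule` proves the bottom step of the farness argument from the bottom rule `rule_bot`
taken as a HYPOTHESIS (so this file imports only helper5's `FarDefs`).
Blueprint: `notes/s0066_blueprint.md`, F2.
-/
import Crest.Agent.Helper5.S0066.FarDefs

set_option autoImplicit false

namespace Crest.Agent.Helper72.S0066

open Crest.Agent.Helper5.S0066 Line

variable {h : ℕ}

open Classical in
/-- Leaves whose row is bad are counted by `badRows`. -/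
theorem card_leaf_badRow_le (B : Line h → Line h → Bool) (i' : Fin (2 ^ h)) :
    (Finset.univ.filter fun x : Fin (2 ^ h) => ¬ GoodRow B i' (leaf x)).card ≤
      (badRows B i').card := by
  apply Finset.card_le_card_of_injOn (fun x => (leaf x : Line h))
  · intro x hx
    have hx' := (Finset.mem_filter.mp hx).2
    exact Finset.mem_filter.mpr ⟨Finset.mem_univ _, rfl, hx'⟩
  · intro x _ y _ hxy
    exact Line.leaf.inj hxy

open Classical in
/-- Leaves whose column is bad are counted by `badCols`. -/
theorem card_leaf_badCol_le (B : Line h → Line h → Bool) (i : Fin (2 ^ h)) :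
    (Finset.univ.filter fun x : Fin (2 ^ h) => ¬ GoodCol B i (leaf x)).card ≤
      (badCols B i).card := by
  apply Finset.card_le_card_of_injOn (fun x => (leaf x : Line h))
  · intro x hx
    have hx' := (Finset.mem_filter.mp hx).2
    exact Finset.mem_filter.mpr ⟨Finset.mem_univ _, rfl, hx'⟩
  · intro x _ y _ hxy
    exact Line.leaf.inj hxy

open Classical in
/-- `Y` rows that are bad are counted by `badRows`. -/
theorem card_Y_badRow_le (B : Line h → Line h → Bool) (i' : Fin (2 ^ h)) :
    (Finset.univ.filter fun u : Fin (2 ^ h) => ¬ GoodRow B i' (Y u)).card ≤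
      (badRows B i').card := by
  apply Finset.card_le_card_of_injOn (fun u => (Y u : Line h))
  · intro u hu
    have hu' := (Finset.mem_filter.mp hu).2
    exact Finset.mem_filter.mpr ⟨Finset.mem_univ _, rfl, hu'⟩
  · intro u _ v _ huv
    exact Line.Y.inj huv

open Classical in
/-- `Y` columns that are bad are counted by `badCols`. -/
theorem card_Y_badCol_le (B : Line h → Line h → Bool) (i : Fin (2 ^ h)) :
    (Finset.univ.filter fun u : Fin (2 ^ h) => ¬ GoodCol B i (Y u)).card ≤
      (badCols B i).card := by
  apply Finset.card_le_card_of_injOn (fun u => (Y u : Line h))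
  · intro u hu
    have hu' := (Finset.mem_filter.mp hu).2
    exact Finset.mem_filter.mpr ⟨Finset.mem_univ _, rfl, hu'⟩
  · intro u _ v _ huv
    exact Line.Y.inj huv

/-- A splitting bound: if every element satisfies `P`, `Q` or `R`, the three filters cover. -/
theorem card_le_three {α : Type*} [Fintype α] (P Q R : α → Prop) [DecidablePred P]
    [DecidablePred Q] [DecidablePred R] (hcov : ∀ a, P a ∨ Q a ∨ R a) :
    Fintype.card α ≤ (Finset.univ.filter P).card + (Finset.univ.filter Q).card +
      (Finset.univ.filter R).card := by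
  classical
  have hsub : (Finset.univ : Finset α) ⊆
      (Finset.univ.filter P ∪ Finset.univ.filter Q) ∪ Finset.univ.filter R := by
    intro a _
    rcases hcov a with hp | hq | hr
    · exact Finset.mem_union_left _ (Finset.mem_union_left _ (by simp [hp]))
    · exact Finset.mem_union_left _ (Finset.mem_union_right _ (by simp [hq]))
    · exact Finset.mem_union_right _ (by simp [hr])
  calc Fintype.card α = (Finset.univ : Finset α).card := Finset.card_univ.symm
    _ ≤ ((Finset.univ.filter P ∪ Finset.univ.filter Q) ∪ Finset.univ.filter R).card :=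
        Finset.card_le_card hsub
    _ ≤ (Finset.univ.filter P ∪ Finset.univ.filter Q).card + (Finset.univ.filter R).card :=
        Finset.card_union_le _ _
    _ ≤ (Finset.univ.filter P).card + (Finset.univ.filter Q).card +
          (Finset.univ.filter R).card :=
        Nat.add_le_add_right (Finset.card_union_le _ _) _

/-- The arithmetic behind the per-leaf bound. -/
theorem arith_core (N r c a b p q E : ℕ) (hp : N ≤ p + r + a) (hq : N ≤ q + c + b)
    (hbad : 16 * (r + c) < N) (hab : 2 * (a + b) < N) (hprod : p * q ≤ E)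
    (hE : 16 * E < N * N) : False := by
  have hp' : N ≤ p + (r + a) := by omega
  have hq' : N ≤ q + (c + b) := by omega
  have hsum : 16 * ((r + a) + (c + b)) < 9 * N := by omega
  have key : N * N ≤ 16 * (p * q) := by
    zify at hp' hq' hsum ⊢
    nlinarith [mul_nonneg (Nat.cast_nonneg (α := ℤ) (r + a)) (Nat.cast_nonneg (α := ℤ) (c + b)),
      mul_nonneg (Nat.cast_nonneg (α := ℤ) p) (Nat.cast_nonneg (α := ℤ) q),
      mul_nonneg (Nat.cast_nonneg (α := ℤ) p) (Nat.cast_nonneg (α := ℤ) (c + b)),
      mul_nonneg (Nat.cast_nonneg (α := ℤ) q) (Nat.cast_nonneg (α := ℤ) (r + a)),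
      Nat.cast_nonneg (α := ℤ) N]
  have h16 : 16 * (p * q) ≤ 16 * E := Nat.mul_le_mul_left 16 hprod
  omega

open Classical in
/-- **F2, per leaf.**  A good leaf whose diagonal cell is kept loses at least half of its cells
against the `Y` lines. -/
theorem kept_leaf_heavy (B : Line h → Line h → Bool) (i i' : Fin (2 ^ h))
    (rb : ∀ u u' x : Fin (2 ^ h), GoodRow B i' (Y u) → GoodCol B i (Y u') →
      GoodRow B i' (leaf x) → GoodCol B i (leaf x) → B (leaf x) (leaf x) = true →
      B (Y u) (Y u') = false ∨ B (Y u) (leaf x) = false ∨ B (leaf x) (Y u') = false)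
    (hE : 16 * (diffSet B).card < 4 ^ h)
    (hbad : 16 * ((badRows B i').card + (badCols B i).card) < 2 ^ h)
    (x : Fin (2 ^ h)) (hx : GoodRow B i' (leaf x)) (hx' : GoodCol B i (leaf x))
    (hxx : B (leaf x) (leaf x) = true) :
    2 ^ h ≤ 2 * ((Finset.univ.filter fun u : Fin (2 ^ h) => B (Y u) (leaf x) = false).card +
      (Finset.univ.filter fun u' : Fin (2 ^ h) => B (leaf x) (Y u') = false).card) := by
  by_contra hcon
  rw [not_le] at hcon
  obtain ⟨a, ha⟩ : ∃ a, a =
    (Finset.univ.filter fun u : Fin (2 ^ h) => B (Y u) (leaf x) = false).card := ⟨_, rfl⟩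
  obtain ⟨b, hb⟩ : ∃ b, b =
    (Finset.univ.filter fun u' : Fin (2 ^ h) => B (leaf x) (Y u') = false).card := ⟨_, rfl⟩
  obtain ⟨U, hU⟩ : ∃ U, U = Finset.univ.filter fun u : Fin (2 ^ h) =>
    GoodRow B i' (Y u) ∧ B (Y u) (leaf x) = true := ⟨_, rfl⟩
  obtain ⟨U', hU'⟩ : ∃ U', U' = Finset.univ.filter fun u' : Fin (2 ^ h) =>
    GoodCol B i (Y u') ∧ B (leaf x) (Y u') = true := ⟨_, rfl⟩
  rw [← ha, ← hb] at hcon
  -- sizes of `U`, `U'`
  have hUc : 2 ^ h ≤ U.card + (badRows B i').card + a := by
    have h3 := card_le_three (α := Fin (2 ^ h))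
      (fun u => GoodRow B i' (Y u) ∧ B (Y u) (leaf x) = true)
      (fun u => ¬ GoodRow B i' (Y u)) (fun u => B (Y u) (leaf x) = false) (by
        intro u
        by_cases hg : GoodRow B i' (Y u)
        · cases hB : B (Y u) (leaf x)
          · exact Or.inr (Or.inr rfl)
          · exact Or.inl ⟨hg, rfl⟩
        · exact Or.inr (Or.inl hg))
    rw [Fintype.card_fin, ← hU, ← ha] at h3
    have h4 := card_Y_badRow_le B i'
    omega
  have hUc' : 2 ^ h ≤ U'.card + (badCols B i).card + b := by
    have h3 := card_le_three (α := Fin (2 ^ h))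
      (fun u => GoodCol B i (Y u) ∧ B (leaf x) (Y u) = true)
      (fun u => ¬ GoodCol B i (Y u)) (fun u => B (leaf x) (Y u) = false) (by
        intro u
        by_cases hg : GoodCol B i (Y u)
        · cases hB : B (leaf x) (Y u)
          · exact Or.inr (Or.inr rfl)
          · exact Or.inl ⟨hg, rfl⟩
        · exact Or.inr (Or.inl hg))
    rw [Fintype.card_fin, ← hU', ← hb] at h3
    have h4 := card_Y_badCol_le B i
    omega
  -- `U × U'` injects into the changed cells
  have hprod : U.card * U'.card ≤ (diffSet B).card := by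
    rw [← Finset.card_product]
    apply Finset.card_le_card_of_injOn (fun p : Fin (2 ^ h) × Fin (2 ^ h) =>
      ((Y p.1 : Line h), (Y p.2 : Line h)))
    · intro p hp
      have hp' := Finset.mem_product.mp hp
      rw [hU, hU'] at hp'
      have h1 := (Finset.mem_filter.mp hp'.1).2
      have h2 := (Finset.mem_filter.mp hp'.2).2
      have hr := rb p.1 p.2 x h1.1 h2.1 hx hx' hxx
      have hf : B (Y p.1) (Y p.2) = false := by
        rcases hr with hr | hr | hr
        · exact hr
        · rw [h1.2] at hr; exact absurd hr (by simp)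
        · rw [h2.2] at hr; exact absurd hr (by simp)
      refine Finset.mem_filter.mpr ⟨Finset.mem_univ _, ?_⟩
      show M (Y p.1) (Y p.2) ≠ B (Y p.1) (Y p.2)
      rw [hf]
      simp [M]
    · intro p _ q _ hpq
      have h1 : (Y p.1 : Line h) = Y q.1 := congrArg Prod.fst hpq
      have h2 : (Y p.2 : Line h) = Y q.2 := congrArg Prod.snd hpq
      exact Prod.ext (Line.Y.inj h1) (Line.Y.inj h2)
  -- arithmetic
  have h4 : (4 : ℕ) ^ h = 2 ^ h * 2 ^ h := by
    rw [← mul_pow]; norm_num
  rw [h4] at hE
  exact arith_core (2 ^ h) (badRows B i').card (badCols B i).card a b U.card U'.card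
    (diffSet B).card hUc hUc' hbad hcon hprod hE

open Classical in
/-- The cells `(Y u, leaf x)` and `(leaf x, Y u')` deleted at the leaves of `K` are distinct
changed cells. -/
theorem sum_deleted_le (B : Line h → Line h → Bool) (K : Finset (Fin (2 ^ h))) :
    ∑ x ∈ K, ((Finset.univ.filter fun u : Fin (2 ^ h) => B (Y u) (leaf x) = false).card +
      (Finset.univ.filter fun u' : Fin (2 ^ h) => B (leaf x) (Y u') = false).card) ≤
      (diffSet B).card := by
  rw [Finset.sum_add_distrib]
  have h1 : ∑ x ∈ K, (Finset.univ.filter fun u : Fin (2 ^ h) => B (Y u) (leaf x) = false).card ≤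
      ((diffSet B).filter fun p => ∃ u, p.1 = Y u).card := by
    rw [← Finset.card_sigma]
    apply Finset.card_le_card_of_injOn (fun s : (Σ _ : Fin (2 ^ h), Fin (2 ^ h)) =>
      ((Y s.2 : Line h), (leaf s.1 : Line h)))
    · intro s hs
      have hs' := Finset.mem_sigma.mp hs
      have hf := (Finset.mem_filter.mp hs'.2).2
      refine Finset.mem_filter.mpr ⟨Finset.mem_filter.mpr ⟨Finset.mem_univ _, ?_⟩, s.2, rfl⟩
      show M (Y s.2) (leaf s.1) ≠ B (Y s.2) (leaf s.1)
      rw [hf]
      simp [M]
    · intro s _ t _ hst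
      have h1 : (Y s.2 : Line h) = Y t.2 := congrArg Prod.fst hst
      have h2 : (leaf s.1 : Line h) = leaf t.1 := congrArg Prod.snd hst
      have e1 := Line.Y.inj h1
      have e2 := Line.leaf.inj h2
      cases s; cases t
      simp only at e1 e2
      subst e1 e2
      rfl
  have h2 : ∑ x ∈ K, (Finset.univ.filter fun u' : Fin (2 ^ h) => B (leaf x) (Y u') = false).card ≤
      ((diffSet B).filter fun p => ¬ ∃ u, p.1 = Y u).card := by
    rw [← Finset.card_sigma]
    apply Finset.card_le_card_of_injOn (fun s : (Σ _ : Fin (2 ^ h), Fin (2 ^ h)) =>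
      ((leaf s.1 : Line h), (Y s.2 : Line h)))
    · intro s hs
      have hs' := Finset.mem_sigma.mp hs
      have hf := (Finset.mem_filter.mp hs'.2).2
      refine Finset.mem_filter.mpr ⟨Finset.mem_filter.mpr ⟨Finset.mem_univ _, ?_⟩, ?_⟩
      · show M (leaf s.1) (Y s.2) ≠ B (leaf s.1) (Y s.2)
        rw [hf]
        simp [M]
      · rintro ⟨u, hu⟩
        have hu' : (leaf s.1 : Line h) = Y u := hu
        cases hu'
    · intro s _ t _ hst
      have h1 : (leaf s.1 : Line h) = leaf t.1 := congrArg Prod.fst hst
      have h2 : (Y s.2 : Line h) = Y t.2 := congrArg Prod.snd hst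
      have e1 := Line.leaf.inj h1
      have e2 := Line.Y.inj h2
      cases s; cases t
      simp only at e1 e2
      subst e1 e2
      rfl
  have h3 := Finset.card_filter_add_card_filter_not (s := diffSet B) (fun p => ∃ u, p.1 = Y u)
  omega

/-- A covering bound for three finsets. -/
theorem card_le_three' {α : Type*} [Fintype α] [DecidableEq α] (S1 S2 S3 : Finset α)
    (hcov : ∀ a, a ∈ S1 ∨ a ∈ S2 ∨ a ∈ S3) :
    Fintype.card α ≤ S1.card + S2.card + S3.card := by
  have hsub : (Finset.univ : Finset α) ⊆ (S1 ∪ S2) ∪ S3 := by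
    intro a _
    rcases hcov a with hp | hq | hr
    · exact Finset.mem_union_left _ (Finset.mem_union_left _ hp)
    · exact Finset.mem_union_left _ (Finset.mem_union_right _ hq)
    · exact Finset.mem_union_right _ hr
  calc Fintype.card α = (Finset.univ : Finset α).card := Finset.card_univ.symm
    _ ≤ ((S1 ∪ S2) ∪ S3).card := Finset.card_le_card hsub
    _ ≤ (S1 ∪ S2).card + S3.card := Finset.card_union_le _ _
    _ ≤ S1.card + S2.card + S3.card := Nat.add_le_add_right (Finset.card_union_le _ _) _

open Classical in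
/-- **F2 from the bottom rule.**  More than `13/16` of the leaves are good with a deleted
diagonal cell, provided the bottom rule holds for `B` and the sample `(i, i')`. -/
theorem bottom_of_rule (B : Line h → Line h → Bool) (i i' : Fin (2 ^ h))
    (rb : ∀ u u' x : Fin (2 ^ h), GoodRow B i' (Y u) → GoodCol B i (Y u') →
      GoodRow B i' (leaf x) → GoodCol B i (leaf x) → B (leaf x) (leaf x) = true →
      B (Y u) (Y u') = false ∨ B (Y u) (leaf x) = false ∨ B (leaf x) (Y u') = false)
    (hE : 16 * (diffSet B).card < 4 ^ h)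
    (hbad : 16 * ((badRows B i').card + (badCols B i).card) < 2 ^ h) :
    13 * 2 ^ h < 16 * (X0 B i i').card := by
  obtain ⟨K, hK⟩ : ∃ K, K = Finset.univ.filter fun x : Fin (2 ^ h) =>
    GoodRow B i' (leaf x) ∧ GoodCol B i (leaf x) ∧ B (leaf x) (leaf x) = true := ⟨_, rfl⟩
  obtain ⟨R, hR⟩ : ∃ R, R = Finset.univ.filter fun x : Fin (2 ^ h) =>
    ¬ GoodRow B i' (leaf x) := ⟨_, rfl⟩
  obtain ⟨C, hC⟩ : ∃ C, C = Finset.univ.filter fun x : Fin (2 ^ h) =>
    ¬ GoodCol B i (leaf x) := ⟨_, rfl⟩
  -- the leaves split into `X0`, `K` and the leaves with a bad line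
  have hcov : 2 ^ h ≤ (X0 B i i').card + K.card + (R ∪ C).card := by
    have h3 := card_le_three' (α := Fin (2 ^ h)) (X0 B i i') K (R ∪ C) (by
      intro x
      by_cases hr : GoodRow B i' (leaf x)
      · by_cases hc : GoodCol B i (leaf x)
        · cases hB : B (leaf x) (leaf x)
          · left
            exact Finset.mem_filter.mpr ⟨Finset.mem_univ _, hr, hc, hB⟩
          · right; left
            rw [hK]
            exact Finset.mem_filter.mpr ⟨Finset.mem_univ _, hr, hc, hB⟩
        · right; right
          rw [hC]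
          exact Finset.mem_union_right _ (Finset.mem_filter.mpr ⟨Finset.mem_univ _, hc⟩)
      · right; right
        rw [hR]
        exact Finset.mem_union_left _ (Finset.mem_filter.mpr ⟨Finset.mem_univ _, hr⟩))
    rwa [Fintype.card_fin] at h3
  have hRC : (R ∪ C).card ≤ (badRows B i').card + (badCols B i).card := by
    have h1 := Finset.card_union_le R C
    have h2 := card_leaf_badRow_le B i'
    have h3 := card_leaf_badCol_le B i
    rw [← hR] at h2
    rw [← hC] at h3
    omega
  -- every leaf of `K` is heavy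
  have hheavy : K.card • 2 ^ h ≤ ∑ x ∈ K,
      2 * ((Finset.univ.filter fun u : Fin (2 ^ h) => B (Y u) (leaf x) = false).card +
        (Finset.univ.filter fun u' : Fin (2 ^ h) => B (leaf x) (Y u') = false).card) := by
    apply Finset.card_nsmul_le_sum
    intro x hx
    rw [hK] at hx
    have hx' := (Finset.mem_filter.mp hx).2
    exact kept_leaf_heavy B i i' rb hE hbad x hx'.1 hx'.2.1 hx'.2.2
  rw [← Finset.mul_sum, smul_eq_mul] at hheavy
  have hsum := sum_deleted_le B K
  have h4 : (4 : ℕ) ^ h = 2 ^ h * 2 ^ h := by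
    rw [← mul_pow]; norm_num
  rw [h4] at hE
  have hNpos : 0 < 2 ^ h := Nat.pos_of_ne_zero (by positivity)
  have hK16 : 16 * K.card < 2 * 2 ^ h := by
    have : 16 * K.card * 2 ^ h < 2 * 2 ^ h * 2 ^ h := by nlinarith
    exact Nat.lt_of_mul_lt_mul_right this
  omega

end Crest.Agent.Helper72.S0066
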